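import Vale.Agent.P331.Greedy

/-! The reversible exchange process. -/

namespace Vale.Agent.P331

open Finset Function

variable {E : Type} [DecidableEq E]

/-- the state: a set and a bit for each element -/
abbrev St (E : Type) : Type := Finset E × (E → Bool)

/-- the local involution -/
def flipS (e : E) : Option E → St E → St E
  | none, s => if s.2 e = true then (if e ∈ s.1 then (s.1.erase e, s.2) else (insert e s.1, s.2))
      else s
  | Option.some g, s =>
      if e ∈ s.1 then
        (if s.2 e = true then (s.1.erase e, update (update s.2 e (s.2 g)) g false) else s)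
      else (if s.2 g = false then (insert e s.1, update (update s.2 e true) g (s.2 e)) else s)

theorem flipS_erase (e : E) (o : Option E) (s : St E) : (flipS e o s).1.erase e = s.1.erase e := by
  cases o <;> simp only [flipS] <;> split_ifs <;> simp [erase_insert_eq_erase]

theorem flipS_invol (e : E) (o : Option E) (ho : o ≠ Option.some e) (s : St E) :
    flipS e o (flipS e o s) = s := by
  obtain ⟨X, b⟩ := s
  cases o with
  | none =>
    by_cases h1 : b e = true <;> by_cases h2 : e ∈ X <;> simp [flipS, h1, h2]
  | some g =>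
    have hg : g ≠ e := fun h => ho (by rw [h])
    by_cases h2 : e ∈ X
    · by_cases h1 : b e = true
      · simp only [flipS, h1, h2, if_true, notMem_erase, if_false, update_self, insert_erase h2]
        congr 1
        funext x
        by_cases x1 : x = g
        · simp [x1, hg.symm]
        · by_cases x2 : x = e
          · simp [x2, hg.symm, h1]
          · simp [x1, x2]
      · simp [flipS, h1, h2]
    · by_cases h1 : b g = false
      · simp only [flipS, h1, h2, if_true, if_false, mem_insert_self, update_of_ne hg.symm,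
          update_self, erase_insert h2]
        congr 1
        funext x
        by_cases x1 : x = g
        · simp [x1, h1]
        · by_cases x2 : x = e
          · simp [x2, hg.symm]
          · simp [x1, x2]
      · simp [flipS, h1, h2]

open Classical in
/-- a processed element of `G0` outside `G1`, if there is one -/
noncomputable def pick (P G0 G1 : Finset E) : Option E :=
  if h : ∃ g, g ∈ P ∧ g ∈ G0 ∧ g ∉ G1 then Option.some h.choose else none

theorem pick_some {P G0 G1 : Finset E} {g : E} (h : pick P G0 G1 = Option.some g) :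
    g ∈ P ∧ g ∈ G0 ∧ g ∉ G1 := by
  unfold pick at h
  split_ifs at h with h'
  rw [← Option.some.inj h]
  exact h'.choose_spec

theorem pick_none {P G0 G1 : Finset E} (h : pick P G0 G1 = none) {g : E} (h1 : g ∈ P)
    (h2 : g ∈ G0) : g ∈ G1 := by
  unfold pick at h
  split_ifs at h with h'
  by_contra hc
  exact h' ⟨g, h1, h2, hc⟩

variable (M : Matroid E)

/-- one step of the process -/
noncomputable def step (ρ : E → E → Prop) (P : Finset E) (e : E) (s : St E) : St E :=
  if e ∈ Gr M ρ (insert e (s.1.erase e)) then
    flipS e (pick P (Gr M ρ (s.1.erase e)) (Gr M ρ (insert e (s.1.erase e)))) s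
  else s

/-- the state after the arrivals in the list (latest arrival first) -/
noncomputable def run (ρ : E → E → Prop) (s : St E) : List E → St E
  | [] => s
  | e :: l => step M ρ l.toFinset e (run ρ s l)

/-- acceptance of `e` after the arrivals in `l` (latest arrival first) -/
def Acc (ρ : E → E → Prop) (s : St E) (l : List E) (e : E) : Prop :=
  e ∉ (run M ρ s l).1 ∧ e ∈ (run M ρ s (e :: l)).1

/-- the accepted elements -/
def AccIn (ρ : E → E → Prop) (s : St E) : List E → E → Prop
  | [], _ => False
  | e :: l, x => (x = e ∧ Acc M ρ s l e) ∨ AccIn ρ s l x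

variable {M}

theorem step_erase (ρ : E → E → Prop) (P : Finset E) (e : E) (s : St E) :
    (step M ρ P e s).1.erase e = s.1.erase e := by
  unfold step
  split_ifs
  · exact flipS_erase _ _ _
  · rfl

theorem step_invol (ρ : E → E → Prop) (P : Finset E) (e : E) : Involutive (step M ρ P e) := by
  intro s
  have h := step_erase (M := M) ρ P e s
  rw [step, h]
  split_ifs with h1
  · rw [step, if_pos h1]
    exact flipS_invol _ _ (fun hc => notMem_erase e _ (Gr_subset _ _ (pick_some hc).2.1)) s
  · rw [step, if_neg h1]

theorem run_bij (ρ : E → E → Prop) (l : List E) : Bijective fun s => run M ρ s l := by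
  induction l with
  | nil => exact bijective_id
  | cons e l ih => exact (step_invol ρ l.toFinset e).bijective.comp ih

theorem mem_step {ρ : E → E → Prop} {P : Finset E} {e x : E} (s : St E) (hx : x ≠ e) :
    x ∈ (step M ρ P e s).1 ↔ x ∈ s.1 := by
  have := congrArg (x ∈ ·) (step_erase (M := M) ρ P e s)
  simpa [hx] using this

theorem mem_run {ρ : E → E → Prop} (s : St E) {l : List E} {x : E} (hx : x ∉ l) :
    x ∈ (run M ρ s l).1 ↔ x ∈ s.1 := by
  induction l with
  | nil => rfl
  | cons e l ih =>
    rw [List.mem_cons, not_or] at hx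
    rw [run, mem_step _ hx.1, ih hx.2]

theorem run_congr {ρ ρ' : E → E → Prop} (s : St E) (l : List E)
    (h : ∀ e f, (e ∈ s.1 ∨ e ∈ l) → (f ∈ s.1 ∨ f ∈ l) → (ρ e f ↔ ρ' e f)) :
    run M ρ s l = run M ρ' s l := by
  induction l with
  | nil => rfl
  | cons a l ih =>
    have ih' := ih fun e f he hf =>
      h e f (he.imp_right (List.mem_cons_of_mem a)) (hf.imp_right (List.mem_cons_of_mem a))
    have k : ∀ x ∈ insert a ((run M ρ' s l).1.erase a), x ∈ s.1 ∨ x ∈ a :: l := by
      intro x hx
      by_contra hc
      rw [not_or, List.mem_cons, not_or] at hc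
      exact hc.1 ((mem_run s hc.2.2).1 (mem_of_mem_erase ((mem_insert.1 hx).resolve_left hc.2.1)))
    have e1 := Gr_congr (M := M) fun e he f hf => h e f (k e he) (k f hf)
    have e2 := Gr_congr (M := M) (X := (run M ρ' s l).1.erase a) fun e he f hf =>
      h e f (k e (mem_insert_of_mem he)) (k f (mem_insert_of_mem hf))
    rw [run, run, ih', step, step, e1, e2]

variable {K : Type} [LinearOrder K] {κ : E → K}

theorem step_inv (hM : M.E = Set.univ) (hκ : Injective κ) {P : Finset E} {e : E} (he : e ∉ P)
    (s : St E) :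
    ((e ∉ s.1 ∧ e ∈ (step M (fun e f => κ e < κ f) P e s).1) ↔
      (e ∈ Gr M (fun e f => κ e < κ f) (step M (fun e f => κ e < κ f) P e s).1 ∧
        (step M (fun e f => κ e < κ f) P e s).2 e = true)) ∧
    ∀ x ∈ P, (x ∈ Gr M (fun e f => κ e < κ f) s.1 ∧ s.2 x = true) ↔
      (x ∈ Gr M (fun e f => κ e < κ f) (step M (fun e f => κ e < κ f) P e s).1 ∧
        (step M (fun e f => κ e < κ f) P e s).2 x = true) := by
  obtain ⟨X, b⟩ := s
  have U := fun g g' => Gr_unique (M := M) hM hκ (X := X.erase e) (e := e) (g := g) (g' := g')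
  generalize hρ : (fun e f => κ e < κ f) = ρ at *
  have sub : ∀ x ∈ P, x ∈ Gr M ρ (insert e (X.erase e)) → x ∈ Gr M ρ (X.erase e) := fun x hx h =>
    Gr_anti (subset_insert _ _)
      ((mem_insert.1 (Gr_subset _ _ h)).resolve_left fun e' => he (e' ▸ hx)) h
  have ne0 : e ∉ Gr M ρ (X.erase e) := fun h => notMem_erase e _ (Gr_subset _ _ h)
  unfold step
  dsimp only
  by_cases h1 : e ∈ Gr M ρ (insert e (X.erase e))
  swap
  · rw [if_neg h1]
    refine ⟨⟨fun h => absurd h.2 h.1, fun h => absurd ?_ h1⟩, fun _ _ => Iff.rfl⟩
    rw [insert_erase (Gr_subset _ _ h.1)]; exact h.1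
  rw [if_pos h1]
  cases hp : pick P (Gr M ρ (X.erase e)) (Gr M ρ (insert e (X.erase e))) with
  | none =>
    have eq : ∀ x ∈ P, x ∈ Gr M ρ (X.erase e) ↔ x ∈ Gr M ρ (insert e (X.erase e)) := fun x hx =>
      ⟨pick_none hp hx, sub x hx⟩
    by_cases hb : b e = true <;> by_cases hX : e ∈ X
    · rw [insert_erase hX] at eq
      simp only [flipS, hb, hX, if_true]
      exact ⟨by simp [ne0], fun x hx => by rw [eq x hx]⟩
    · rw [erase_eq_of_notMem hX] at eq h1
      simp only [flipS, hb, hX, if_true, if_false]
      exact ⟨by simp [h1], fun x hx => by rw [eq x hx]⟩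
    · simp [flipS, hb, hX]
    · simp [flipS, hb, hX]
  | some g =>
    obtain ⟨g1, g2, g3⟩ := pick_some hp
    have hg : g ≠ e := fun h => he (h ▸ g1)
    have eq : ∀ x ∈ P, x ≠ g → (x ∈ Gr M ρ (X.erase e) ↔ x ∈ Gr M ρ (insert e (X.erase e))) :=
      fun x hx hxg => ⟨fun h => by_contra fun hc => hxg (U x g h hc g2 g3), sub x hx⟩
    by_cases hX : e ∈ X
    · by_cases hb : b e = true
      · rw [insert_erase hX] at eq g3
        simp only [flipS, hb, hX, if_true]
        refine ⟨by simp [ne0], fun x hx => ?_⟩
        by_cases hxg : x = g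
        · simp [hxg, g3]
        · have : x ≠ e := fun h => he (h ▸ hx)
          rw [eq x hx hxg, update_of_ne hxg, update_of_ne this]
      · simp [flipS, hb, hX]
    · by_cases hb : b g = false
      · rw [erase_eq_of_notMem hX] at eq h1 g3
        simp only [flipS, hb, hX, if_true, if_false]
        refine ⟨by simp [h1, hg.symm], fun x hx => ?_⟩
        by_cases hxg : x = g
        · simp [hxg, g3, hb]
        · have : x ≠ e := fun h => he (h ▸ hx)
          rw [eq x hx hxg, update_of_ne hxg, update_of_ne this]
      · have : e ∉ Gr M ρ X := fun h => hX (Gr_subset _ _ h)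
        simp [flipS, hb, hX, this]

theorem accIn_iff (hM : M.E = Set.univ) (hκ : Injective κ) (s : St E) {l : List E} (hl : l.Nodup)
    (x : E) : AccIn M (fun e f => κ e < κ f) s l x ↔ x ∈ l ∧
      x ∈ Gr M (fun e f => κ e < κ f) (run M (fun e f => κ e < κ f) s l).1 ∧
        (run M (fun e f => κ e < κ f) s l).2 x = true := by
  induction l with
  | nil => simp [AccIn]
  | cons e l ih =>
    obtain ⟨h1, h2⟩ := List.nodup_cons.1 hl
    obtain ⟨k1, k2⟩ := step_inv hM hκ (P := l.toFinset) (e := e) (by simpa using h1)
      (run M (fun e f => κ e < κ f) s l)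
    rw [AccIn, ih h2, Acc, run, k1, List.mem_cons]
    constructor
    · rintro (⟨rfl, h⟩ | ⟨h, h'⟩)
      · exact ⟨Or.inl rfl, h⟩
      · exact ⟨Or.inr h, (k2 x (List.mem_toFinset.2 h)).1 h'⟩
    · rintro ⟨rfl | h, h'⟩
      · exact Or.inl ⟨rfl, h'⟩
      · exact Or.inr ⟨h, (k2 x (List.mem_toFinset.2 h)).2 h'⟩

theorem accIn_before (ρ : E → E → Prop) (s : St E) {l : List E} (hl : l.Nodup) (x : E) :
    AccIn M ρ s l.reverse x ↔ x ∈ l ∧ Acc M ρ s (before l x).reverse x := by
  induction l using List.reverseRecOn with
  | nil => simp [AccIn]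
  | append_singleton l a ih =>
    obtain ⟨h1, -, h3⟩ := List.nodup_append.1 hl
    have ha : a ∉ l := fun h => h3 a h a (List.mem_singleton_self a) rfl
    have b1 : before (l ++ [a]) a = l := by
      rw [before, List.takeWhile_append_of_pos fun y hy => by
        simpa using fun e : y = a => ha (e ▸ hy)]
      simp
    have b2 : x ∈ l → before (l ++ [a]) x = before l x := fun hx => by
      rw [before, before, List.takeWhile_append, if_neg]
      intro hc
      have := (List.takeWhile_prefix _).eq_of_length hc
      have := List.mem_takeWhile_imp (this.symm ▸ hx)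
      simp at this
    rw [List.reverse_append, List.reverse_singleton, List.singleton_append, AccIn, ih h1,
      List.mem_append, List.mem_singleton]
    constructor
    · rintro (⟨rfl, h⟩ | ⟨h, h'⟩)
      · exact ⟨Or.inr rfl, by rwa [b1]⟩
      · exact ⟨Or.inl h, by rwa [b2 h]⟩
    · rintro ⟨h | rfl, h'⟩
      · exact Or.inr ⟨h, by rwa [b2 h] at h'⟩
      · exact Or.inl ⟨rfl, by rwa [b1] at h'⟩

theorem acc_iff (hM : M.E = Set.univ) (hκ : Injective κ) (s : St E) {l : List E} (hl : IsOrder l)
    (x : E) : Acc M (fun e f => κ e < κ f) s (before l x).reverse x ↔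
      x ∈ Gr M (fun e f => κ e < κ f) (run M (fun e f => κ e < κ f) s l.reverse).1 ∧
        (run M (fun e f => κ e < κ f) s l.reverse).2 x = true := by
  have h1 := accIn_before (M := M) (fun e f => κ e < κ f) s hl.1 x
  rw [accIn_iff hM hκ s (List.nodup_reverse.2 hl.1)] at h1
  simpa [hl.2 x] using h1.symm

theorem Acc.notMem {ρ : E → E → Prop} {s : St E} {l : List E} {x : E}
    (h : Acc M ρ s (before l x).reverse x) : x ∉ s.1 := fun hx => h.1 ((mem_run s fun hc => by
  have := List.mem_takeWhile_imp (List.mem_reverse.1 hc)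
  simp at this).2 hx)

end Vale.Agent.P331
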