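import Mathlib

/-! Online rules with one sample per element on a finite matroid. -/

namespace Vale.Agent.P331

open scoped NNReal ENNReal

variable {E : Type} [Fintype E] [DecidableEq E]

/-- An arrival order: a list containing every element exactly once. -/
def IsOrder (l : List E) : Prop := l.Nodup ∧ ∀ e, e ∈ l

/-- The elements arriving before `e` in the order `l`, listed in their order of arrival. -/
def before (l : List E) (e : E) : List E := l.takeWhile (· ≠ e)

/-- The largest total value of an independent set. -/
noncomputable def opt (M : Matroid E) (v : E → ℝ≥0) : ℝ≥0∞ :=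
  ⨆ (I : Finset E) (_ : M.Indep (I : Set E)), ∑ e ∈ I, (v e : ℝ≥0∞)

/-- An online rule with a uniformly distributed seed in a finite set. `accept S r h e V` says that
`e` is accepted when the samples are `S`, the seed is `r`, the earlier arrivals are `h` (in order)
and the values are `V`; only the values of `e` and of the earlier arrivals may be used. -/
structure Rule (M : Matroid E) where
  Seed : Type
  [fin : Fintype Seed]
  [ne : Nonempty Seed]
  accept : (E → ℝ≥0) → Seed → List E → E → (E → ℝ≥0) → Prop
  online : ∀ S r h e V V', (∀ f, f ∈ h ∨ f = e → V f = V' f) →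
    (accept S r h e V ↔ accept S r h e V')
  meas : ∀ r h e, MeasurableSet {p : (E → ℝ≥0) × (E → ℝ≥0) | accept p.1 r h e p.2}
  indep : ∀ S r V l, IsOrder l → M.Indep {e | accept S r (before l e) e V}

open Classical in
/-- The total value accepted by the rule. -/
noncomputable def Rule.gain {M : Matroid E} (R : Rule M) (S : E → ℝ≥0) (r : R.Seed) (l : List E)
    (V : E → ℝ≥0) : ℝ≥0∞ :=
  ∑ e with R.accept S r (before l e) e V, (V e : ℝ≥0∞)

end Vale.Agent.P331
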