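import Vale.Agent.P331.Defs

/-! The greedy basis. -/

namespace Vale.Agent.P331

open Finset

variable {E : Type} [DecidableEq E] (M : Matroid E)

open Classical in
/-- The greedy basis of `X` for the order relation `ρ` (`ρ e f` means that `f` beats `e`). -/
noncomputable def Gr (ρ : E → E → Prop) (X : Finset E) : Finset E :=
  X.filter fun e => e ∉ M.closure {f | f ∈ X ∧ ρ e f}

variable {M}

omit [DecidableEq E] in
theorem mem_Gr {ρ : E → E → Prop} {X : Finset E} {e : E} :
    e ∈ Gr M ρ X ↔ e ∈ X ∧ e ∉ M.closure {f | f ∈ X ∧ ρ e f} := by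
  simp [Gr]

omit [DecidableEq E] in
theorem Gr_subset (ρ : E → E → Prop) (X : Finset E) : Gr M ρ X ⊆ X := fun _ h => (mem_Gr.1 h).1

omit [DecidableEq E] in
theorem Gr_congr {ρ ρ' : E → E → Prop} {X : Finset E} (h : ∀ e ∈ X, ∀ f ∈ X, ρ e f ↔ ρ' e f) :
    Gr M ρ X = Gr M ρ' X := by
  ext e
  rw [mem_Gr, mem_Gr]
  refine and_congr_right fun he => ?_
  have : {f | f ∈ X ∧ ρ e f} = {f | f ∈ X ∧ ρ' e f} :=
    Set.ext fun f => and_congr_right fun hf => h e he f hf
  rw [this]

omit [DecidableEq E] in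
theorem Gr_anti {ρ : E → E → Prop} {X Y : Finset E} (h : X ⊆ Y) {e : E} (he : e ∈ X)
    (hY : e ∈ Gr M ρ Y) : e ∈ Gr M ρ X :=
  mem_Gr.2 ⟨he, fun hc => (mem_Gr.1 hY).2
    (M.closure_subset_closure (by rintro f ⟨h1, h2⟩; exact ⟨h h1, h2⟩) hc)⟩

variable {K : Type} [LinearOrder K] {κ : E → K}

theorem Gr_insert_min (hκ : Function.Injective κ) {a : E} {s : Finset E} (ha : a ∉ s)
    (hm : ∀ x ∈ s, κ a ≤ κ x) :
    (a ∈ M.closure s ∧ Gr M (fun e f => κ e < κ f) (insert a s) = Gr M (fun e f => κ e < κ f) s) ∨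
    (a ∉ M.closure s ∧
      Gr M (fun e f => κ e < κ f) (insert a s) = insert a (Gr M (fun e f => κ e < κ f) s)) := by
  have h1 : {f | f ∈ insert a s ∧ κ a < κ f} = (s : Set E) := by
    ext f
    simp only [mem_insert, Set.mem_setOf_eq, mem_coe]
    constructor
    · rintro ⟨rfl | h, h'⟩
      · exact absurd h' (lt_irrefl _)
      · exact h
    · exact fun h => ⟨Or.inr h, (hm f h).lt_of_ne fun e => ha (hκ e ▸ h)⟩
  have h2 : ∀ e ∈ s, {f | f ∈ insert a s ∧ κ e < κ f} = {f | f ∈ s ∧ κ e < κ f} := by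
    intro e he
    ext f
    simp only [mem_insert, Set.mem_setOf_eq]
    constructor
    · rintro ⟨rfl | h, h'⟩
      · exact absurd h' (not_lt.2 (hm e he))
      · exact ⟨h, h'⟩
    · exact fun h => ⟨Or.inr h.1, h.2⟩
  have h3 : ∀ e, e ∈ Gr M (fun e f => κ e < κ f) (insert a s) ↔
      (e = a ∧ a ∉ M.closure s) ∨ e ∈ Gr M (fun e f => κ e < κ f) s := by
    intro e
    rw [mem_Gr, mem_Gr, mem_insert]
    constructor
    · rintro ⟨rfl | h, h'⟩
      · exact Or.inl ⟨rfl, h1 ▸ h'⟩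
      · exact Or.inr ⟨h, h2 e h ▸ h'⟩
    · rintro (⟨rfl, h⟩ | ⟨h, h'⟩)
      · exact ⟨Or.inl rfl, h1.symm ▸ h⟩
      · exact ⟨Or.inr h, (h2 e h).symm ▸ h'⟩
  by_cases hc : a ∈ M.closure s
  · exact Or.inl ⟨hc, Finset.ext fun e => by simp [h3, hc]⟩
  · exact Or.inr ⟨hc, Finset.ext fun e => by simp [h3, hc]⟩

theorem Gr_isBasis (hM : M.E = Set.univ) (hκ : Function.Injective κ) (X : Finset E) :
    M.IsBasis (Gr M (fun e f => κ e < κ f) X) X := by
  induction X using induction_on_min_value κ with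
  | empty => simp [Gr]
  | insert a s ha hm ih =>
    rcases Gr_insert_min (M := M) hκ ha hm with ⟨h1, h2⟩ | ⟨h1, h2⟩
    · rw [h2, coe_insert]
      refine ih.indep.isBasis_of_subset_of_subset_closure
        (ih.subset.trans (Set.subset_insert _ _)) (Set.insert_subset ?_ ih.subset_closure)
      rwa [ih.closure_eq_closure]
    · rw [h2, coe_insert, coe_insert]
      have hi : M.Indep (insert a (Gr M (fun e f => κ e < κ f) s : Set E)) :=
        ih.indep.insert_indep_iff.2 (Or.inl ⟨by simp [hM], by rwa [ih.closure_eq_closure]⟩)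
      refine hi.isBasis_of_subset_of_subset_closure (Set.insert_subset_insert ih.subset)
        (Set.insert_subset (M.subset_closure _ hi.subset_ground (Set.mem_insert _ _))
          (ih.subset_closure.trans (M.closure_subset_closure (Set.subset_insert _ _))))

theorem card_le_Gr (hM : M.E = Set.univ) (hκ : Function.Injective κ) {X J : Finset E}
    (hJ : M.Indep J) (hJX : J ⊆ X) : J.card ≤ (Gr M (fun e f => κ e < κ f) X).card := by
  have h1 := hJ.encard_le_eRk_of_subset (coe_subset.2 hJX)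
  rw [← (Gr_isBasis hM hκ X).encard_eq_eRk, Set.encard_coe_eq_coe_finsetCard,
    Set.encard_coe_eq_coe_finsetCard] at h1
  exact_mod_cast h1

theorem Gr_opt_aux (hM : M.E = Set.univ) (hκ : Function.Injective κ) (w : E → ℝ)
    (hw : ∀ e f, κ e ≤ κ f → w e ≤ w f) (X : Finset E) : ∀ (J : Finset E) (c : ℝ), M.Indep J →
    J ⊆ X → (∀ e ∈ X, c ≤ w e) →
    ∑ e ∈ J, (w e - c) ≤ ∑ e ∈ Gr M (fun e f => κ e < κ f) X, (w e - c) := by
  induction X using induction_on_min_value κ with
  | empty =>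
    intro J c _ hJ _
    rw [subset_empty.1 hJ]; simp [Gr]
  | insert a s ha hm ih =>
    intro J c hJ hJX hc
    have h1 := ih (J.erase a) (w a) (hJ.subset (coe_subset.2 (erase_subset _ _)))
      (subset_insert_iff.1 hJX) fun e he => hw _ _ (hm e he)
    have h2 : ∑ e ∈ Gr M (fun e f => κ e < κ f) s, (w e - w a) =
        ∑ e ∈ Gr M (fun e f => κ e < κ f) (insert a s), (w e - w a) := by
      rcases Gr_insert_min (M := M) hκ ha hm with ⟨-, h⟩ | ⟨-, h⟩
      · rw [h]
      · rw [h, sum_insert fun h' => ha (Gr_subset _ _ h'), sub_self, zero_add]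
    rw [h2, sum_erase J (sub_self (w a))] at h1
    have h3 : (J.card : ℝ) ≤ (Gr M (fun e f => κ e < κ f) (insert a s)).card :=
      Nat.cast_le.2 (card_le_Gr hM hκ hJ hJX)
    have h4 := mul_le_mul_of_nonneg_right h3 (sub_nonneg.2 (hc a (mem_insert_self _ _)))
    simp only [sum_sub_distrib, sum_const, nsmul_eq_mul] at h1 ⊢
    linarith

theorem Gr_opt (hM : M.E = Set.univ) (hκ : Function.Injective κ) (w : E → NNReal)
    (hw : ∀ e f, κ e ≤ κ f → w e ≤ w f) {X J : Finset E} (hJ : M.Indep J) (hJX : J ⊆ X) :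
    ∑ e ∈ J, w e ≤ ∑ e ∈ Gr M (fun e f => κ e < κ f) X, w e := by
  have := Gr_opt_aux hM hκ (fun e => w e) hw X J 0 hJ hJX fun e _ => (w e).2
  simp only [sub_zero] at this
  exact_mod_cast this

/-- at most one element leaves the greedy basis when an element is added -/
theorem Gr_unique (hM : M.E = Set.univ) (hκ : Function.Injective κ) {X : Finset E} {e g g' : E}
    (h1 : g ∈ Gr M (fun e f => κ e < κ f) X) (h2 : g ∉ Gr M (fun e f => κ e < κ f) (insert e X))
    (h3 : g' ∈ Gr M (fun e f => κ e < κ f) X)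
    (h4 : g' ∉ Gr M (fun e f => κ e < κ f) (insert e X)) : g = g' := by
  by_contra hne
  have a1 := card_le_Gr hM hκ (Gr_isBasis hM hκ X).indep
    ((Gr_subset _ X).trans (subset_insert e X))
  have a2 : (Gr M (fun e f => κ e < κ f) (insert e X)).erase e ⊆
      ((Gr M (fun e f => κ e < κ f) X).erase g).erase g' := by
    intro x hx
    obtain ⟨x1, x2⟩ := mem_erase.1 hx
    refine mem_erase.2 ⟨fun h => h4 (h ▸ x2), mem_erase.2 ⟨fun h => h2 (h ▸ x2), ?_⟩⟩
    exact Gr_anti (subset_insert e X) ((mem_insert.1 (Gr_subset _ _ x2)).resolve_left x1) x2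
  have a3 := card_le_card a2
  have a4 := pred_card_le_card_erase (s := Gr M (fun e f => κ e < κ f) (insert e X)) (a := e)
  have m : g' ∈ (Gr M (fun e f => κ e < κ f) X).erase g := mem_erase.2 ⟨Ne.symm hne, h3⟩
  have a5 := card_erase_add_one m
  have a6 := card_erase_add_one h1
  omega

end Vale.Agent.P331
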