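import Vale.Agent.P331.Chain

/-! Counting and the measure theoretic assembly. -/

namespace Vale.Agent.P331

open Finset Function MeasureTheory
open scoped NNReal ENNReal

theorem half_sum {α : Type} [Fintype α] (p : α → Prop) [DecidablePred p] {σ : α → α}
    (hσ : Involutive σ) (h : ∀ a, p (σ a) ↔ ¬p a) (c : ℝ≥0∞) :
    2 * ∑ a, (if p a then c else 0) = Fintype.card α * c := by
  have h1 : ∑ a, (if p a then c else 0) = ∑ a, (if p a then 0 else c) := by
    rw [← hσ.bijective.sum_comp fun a => if p a then c else 0]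
    exact sum_congr rfl fun a _ => by simp only [h a, ite_not]
  rw [two_mul]
  nth_rw 2 [h1]
  rw [← sum_add_distrib, ← card_univ, ← nsmul_eq_mul, ← sum_const]
  exact sum_congr rfl fun a _ => by split_ifs <;> simp

variable {E : Type} [Fintype E] [DecidableEq E] {M : Matroid E}

open Classical in
theorem count_bound (hM : M.E = Set.univ) {K : Type} [LinearOrder K] {κ : E → K}
    (hκ : Injective κ) (w : E → ℝ≥0) (hw : ∀ e f, κ e ≤ κ f → w e ≤ w f) {l : List E}
    (hl : IsOrder l) : (Fintype.card (St E) : ℝ≥0∞) * opt M w ≤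
      4 * ∑ s : St E, ∑ x with Acc M (fun e f => κ e < κ f) s (before l x).reverse x,
        (w x : ℝ≥0∞) := by
  have h1 : ∑ s : St E, ∑ x with Acc M (fun e f => κ e < κ f) s (before l x).reverse x,
      (w x : ℝ≥0∞) = ∑ s : St E, ∑ x ∈ Gr M (fun e f => κ e < κ f) s.1,
        if s.2 x = true then (w x : ℝ≥0∞) else 0 := by
    rw [← (run_bij (M := M) (fun e f => κ e < κ f) l.reverse).sum_comp fun s : St E =>
      ∑ x ∈ Gr M (fun e f => κ e < κ f) s.1, if s.2 x = true then (w x : ℝ≥0∞) else 0]
    refine sum_congr rfl fun s _ => ?_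
    rw [← sum_filter]
    refine sum_congr (Finset.ext fun x => ?_) fun _ _ => rfl
    simp only [mem_filter, mem_univ, true_and, acc_iff hM hκ s hl]
  have h2 : ∀ X : Finset E, 2 * ∑ b : E → Bool, ∑ x ∈ X, (if b x = true then (w x : ℝ≥0∞) else 0) =
      Fintype.card (E → Bool) * ∑ x ∈ X, (w x : ℝ≥0∞) := by
    intro X
    rw [sum_comm, mul_sum, mul_sum]
    refine sum_congr rfl fun x _ => half_sum (fun b : E → Bool => b x = true)
      (σ := fun b => update b x (!b x)) (fun b => by simp) (fun b => by simp) _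
  have h3 : ∀ I : Finset E, 2 * ∑ X : Finset E, ∑ x ∈ I ∩ X, (w x : ℝ≥0∞) =
      Fintype.card (Finset E) * ∑ x ∈ I, (w x : ℝ≥0∞) := by
    intro I
    simp only [← sum_ite_mem]
    rw [sum_comm, mul_sum, mul_sum]
    refine sum_congr rfl fun x _ => half_sum (fun X : Finset E => x ∈ X)
      (σ := fun X => symmDiff X {x}) (fun X => by simp) (fun X => by simp [mem_symmDiff]) _
  rw [h1, Fintype.sum_prod_type, opt]
  simp only [ENNReal.mul_iSup]
  refine iSup₂_le fun I hI => ?_
  calc _ = (Fintype.card (E → Bool) : ℝ≥0∞) *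
        (Fintype.card (Finset E) * ∑ x ∈ I, (w x : ℝ≥0∞)) := by
        rw [Fintype.card_prod, Nat.cast_mul]; ring
    _ = 2 * ∑ X : Finset E, Fintype.card (E → Bool) * ∑ x ∈ I ∩ X, (w x : ℝ≥0∞) := by
        rw [← h3, ← mul_sum]; ring
    _ ≤ 2 * ∑ X : Finset E, Fintype.card (E → Bool) *
        ∑ x ∈ Gr M (fun e f => κ e < κ f) X, (w x : ℝ≥0∞) := by
        refine mul_le_mul_right (sum_le_sum fun X _ => mul_le_mul_right ?_ _) _
        exact_mod_cast Gr_opt hM hκ w hw (hI.subset (coe_subset.2 inter_subset_left))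
          inter_subset_right
    _ = _ := by
        simp only [← h2]
        rw [← mul_sum, ← mul_assoc]; norm_num

/-- comparison key: value first, a fixed enumeration to break ties -/
noncomputable def key (w : E → ℝ≥0) (e : E) : ℝ≥0 ×ₗ Fin (Fintype.card E) :=
  toLex (w e, Fintype.equivFin E e)

omit [DecidableEq E] in
theorem key_inj (w : E → ℝ≥0) : Injective (key w) := fun _ _ h =>
  (Fintype.equivFin E).injective (congrArg (fun p => (ofLex p).2) h)

omit [DecidableEq E] in
theorem key_le (w : E → ℝ≥0) (e f : E) (h : key w e ≤ key w f) : w e ≤ w f :=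
  Prod.Lex.monotone_fst _ _ h

omit [DecidableEq E] in
theorem meas_key (P : (E → E → Prop) → Prop) :
    MeasurableSet {w : E → ℝ≥0 | P fun e f => key w e < key w f} := by
  have h : Measurable fun (w : E → ℝ≥0) (e f : E) => key w e < key w f := by
    refine measurable_pi_lambda _ fun e => measurable_pi_lambda _ fun f => ?_
    simp only [key, Prod.Lex.toLex_lt_toLex]
    exact (measurableSet_setOf.1 (measurableSet_lt (measurable_pi_apply e)
      (measurable_pi_apply f))).or ((measurableSet_setOf.1 (measurableSet_eq_fun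
        (measurable_pi_apply e) (measurable_pi_apply f))).and measurable_const)
  exact h (MeasurableSet.of_discrete (s := {r | P r}))

/-- the first vector on `T`, the second one elsewhere -/
def mix (T : Finset E) (S V : E → ℝ≥0) (e : E) : ℝ≥0 := if e ∈ T then S e else V e

omit [Fintype E] in
theorem meas_mix (T : Finset E) :
    Measurable fun p : (E → ℝ≥0) × (E → ℝ≥0) => mix T p.1 p.2 := by
  refine measurable_pi_lambda _ fun e => ?_
  unfold mix
  split_ifs <;> fun_prop

theorem mp_swap (D : E → Measure ℝ≥0) [∀ e, IsProbabilityMeasure (D e)] (T : Finset E) :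
    MeasurePreserving (fun p : (E → ℝ≥0) × (E → ℝ≥0) => (mix T p.2 p.1, mix T p.1 p.2))
      ((Measure.pi D).prod (Measure.pi D)) ((Measure.pi D).prod (Measure.pi D)) := by
  have h1 := measurePreserving_arrowProdEquivProdArrow ℝ≥0 ℝ≥0 E D D
  have h2 : MeasurePreserving (fun (q : E → ℝ≥0 × ℝ≥0) e => if e ∈ T then (q e).swap else q e)
      (Measure.pi fun e => (D e).prod (D e)) (Measure.pi fun e => (D e).prod (D e)) :=
    measurePreserving_pi _ _ (f := fun e (x : ℝ≥0 × ℝ≥0) => if e ∈ T then x.swap else x) fun e => by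
      split_ifs
      · exact Measure.measurePreserving_swap
      · exact MeasurePreserving.id _
  convert (h1.comp h2).comp (h1.symm _) using 1
  funext p
  refine Prod.ext (funext fun e => ?_) (funext fun e => ?_) <;>
    by_cases h : e ∈ T <;>
    simp [mix, h, MeasurableEquiv.arrowProdEquivProdArrow, Equiv.arrowProdEquivProdArrow]

/-- the reversible exchange rule -/
noncomputable def rule (hM : M.E = Set.univ) : Rule M where
  Seed := St E
  accept S r h e V := Acc M (fun a b => key (mix r.1 S V) a < key (mix r.1 S V) b) r h.reverse e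
  online S r h e V V' hV := by
    have k : ∀ a, (a ∈ r.1 ∨ a ∈ e :: h.reverse) → key (mix r.1 S V) a = key (mix r.1 S V') a := by
      intro a ha
      unfold key mix
      split_ifs with h1
      · rfl
      · rw [hV a (by simpa [h1, or_comm] using ha)]
    unfold Acc
    rw [run_congr r (e :: h.reverse) fun a b ha hb => by rw [k a ha, k b hb],
      run_congr r h.reverse fun a b ha hb => by
        rw [k a (ha.imp_right (List.mem_cons_of_mem e)), k b (hb.imp_right (List.mem_cons_of_mem e))]]
  meas r h e := meas_mix r.1 (meas_key fun ρ => Acc M ρ r h.reverse e)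
  indep S r V l hl := (Gr_isBasis hM (key_inj _) _).indep.subset fun x hx =>
    ((acc_iff hM (key_inj _) r hl x).1 hx).1

theorem main (hM : M.E = Set.univ) (D : E → Measure ℝ≥0) [∀ e, IsProbabilityMeasure (D e)]
    (π : (E → ℝ≥0) → (E → ℝ≥0) → List E) (h1 : ∀ S V, IsOrder (π S V))
    (h2 : ∀ l, MeasurableSet {p : (E → ℝ≥0) × (E → ℝ≥0) | π p.1 p.2 = l})
    (h3 : ∀ S V S' V', (∀ e, (S' e = S e ∧ V' e = V e) ∨ (S' e = V e ∧ V' e = S e)) →
      π S' V' = π S V) :
    (Fintype.card (St E) : ℝ≥0∞) * ∫⁻ V, opt M V ∂(Measure.pi D) ≤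
      4 * ∑ r : St E, ∫⁻ p, (rule hM).gain p.1 r (π p.1 p.2) p.2
        ∂((Measure.pi D).prod (Measure.pi D)) := by
  classical
  obtain ⟨G, hG⟩ : ∃ G : St E → (E → ℝ≥0) × (E → ℝ≥0) → ℝ≥0∞, ∀ r p, G r p =
      ∑ x with Acc M (fun a b => key p.2 a < key p.2 b) r (before (π p.1 p.2) x).reverse x,
        (p.2 x : ℝ≥0∞) := ⟨_, fun _ _ => rfl⟩
  have mG : ∀ r, Measurable (G r) := by
    intro r
    rw [funext (hG r)]
    simp only [sum_filter]
    refine Finset.measurable_sum _ fun x _ => Measurable.ite ?_ (by fun_prop) measurable_const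
    have : {p : (E → ℝ≥0) × (E → ℝ≥0) | Acc M (fun a b => key p.2 a < key p.2 b) r
        (before (π p.1 p.2) x).reverse x} = ⋃ l, {p | π p.1 p.2 = l} ∩ Prod.snd ⁻¹'
          {w | Acc M (fun a b => key w a < key w b) r (before l x).reverse x} := by
      ext p; simp
    rw [this]
    exact MeasurableSet.iUnion fun l => (h2 l).inter
      (measurable_snd (meas_key fun ρ => Acc M ρ r (before l x).reverse x))
  have e1 : ∀ r : St E, ∫⁻ p, (rule hM).gain p.1 r (π p.1 p.2) p.2
      ∂((Measure.pi D).prod (Measure.pi D)) = ∫⁻ p, G r p ∂((Measure.pi D).prod (Measure.pi D)) := by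
    intro r
    rw [← (mp_swap D r.1).lintegral_comp (mG r)]
    refine lintegral_congr fun p => ?_
    have e : π (mix r.1 p.2 p.1) (mix r.1 p.1 p.2) = π p.1 p.2 := h3 _ _ _ _ fun e => by
      by_cases h : e ∈ r.1 <;> simp [mix, h]
    rw [hG, e]
    unfold Rule.gain
    refine sum_congr (by congr) fun x hx => ?_
    simp only [mix, if_neg (mem_filter.1 hx).2.notMem]
  simp only [e1]
  rw [← lintegral_finset_sum _ fun r _ => mG r, ← lintegral_const_mul' _ _ (ENNReal.natCast_ne_top _),
    ← lintegral_const_mul' _ _ (by simp)]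
  conv_lhs => rw [← (measurePreserving_snd (μ := Measure.pi D) (ν := Measure.pi D)).map_eq]
  refine (lintegral_map_le _ _).trans (lintegral_mono fun p => ?_)
  simp only [hG]
  convert count_bound hM (key_inj p.2) p.2 (key_le p.2) (h1 p.1 p.2)

end Vale.Agent.P331
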