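import Vale.Agent.P331.Defs

/-! Online rules without samples (secretary setting). -/

namespace Vale.Agent.P331

open scoped NNReal ENNReal

variable {E : Type} [Fintype E] [DecidableEq E]

/-- An online rule without samples, with a uniformly distributed seed in a finite set.
`accept r h e w` says that `e` is accepted when the seed is `r`, the earlier arrivals are `h` (in
order) and the weights are `w`; only the weights of `e` and of the earlier arrivals may be used. -/
structure SecRule (M : Matroid E) where
  Seed : Type
  [fin : Fintype Seed]
  [ne : Nonempty Seed]
  accept : Seed → List E → E → (E → ℝ≥0) → Prop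
  online : ∀ r h e w w', (∀ f, f ∈ h ∨ f = e → w f = w' f) → (accept r h e w ↔ accept r h e w')
  indep : ∀ r w l, IsOrder l → M.Indep {e | accept r (before l e) e w}

open Classical in
/-- The total weight accepted by the rule. -/
noncomputable def SecRule.gain {M : Matroid E} (R : SecRule M) (r : R.Seed) (l : List E)
    (w : E → ℝ≥0) : ℝ≥0∞ :=
  ∑ e with R.accept r (before l e) e w, (w e : ℝ≥0∞)

end Vale.Agent.P331
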