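import Vale.Agent.P331.Main
import Vale.Agent.P331.SDefs

/-! The secretary setting. -/

namespace Vale.Agent.P331

open Finset Function
open scoped NNReal ENNReal

/-- interleaving of two lists along a pattern -/
def merge {E : Type} : List Bool → List E → List E → List E
  | true :: cs, a :: as, bs => a :: merge cs as bs
  | false :: cs, as, b :: bs => b :: merge cs as bs
  | _, _, _ => []

theorem merge_filter {E : Type} (p : E → Bool) (v : List E) :
    merge (v.map p) (v.filter p) (v.filter fun x => !p x) = v := by
  induction v with
  | nil => simp [merge]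
  | cons a v ih => cases h : p a <;> simp [merge, h, ih]

theorem mem_merge {E : Type} {cs : List Bool} {as bs : List E} {x : E} (h : x ∈ merge cs as bs) :
    x ∈ as ∨ x ∈ bs := by
  induction cs generalizing as bs with
  | nil => simp [merge] at h
  | cons c cs ih =>
    cases c
    · cases bs with
      | nil => simp [merge] at h
      | cons b bs =>
        rcases List.mem_cons.1 h with h | h
        · exact Or.inr (h ▸ List.mem_cons_self)
        · exact (ih h).imp_right (List.mem_cons_of_mem b)
    · cases as with
      | nil => simp [merge] at h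
      | cons a as =>
        rcases List.mem_cons.1 h with h | h
        · exact Or.inl (h ▸ List.mem_cons_self)
        · exact (ih h).imp_left (List.mem_cons_of_mem a)

theorem merge_perm {E : Type} {cs : List Bool} {as bs : List E} (h1 : as.length = cs.countP id)
    (h2 : as.length + bs.length = cs.length) : (merge cs as bs).Perm (as ++ bs) := by
  induction cs generalizing as bs with
  | nil =>
    obtain ⟨a, b⟩ := Nat.add_eq_zero_iff.1 h2
    rw [List.length_eq_zero_iff.1 a, List.length_eq_zero_iff.1 b]; simp [merge]
  | cons c cs ih =>
    have := List.countP_le_length (p := id) (l := cs)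
    cases c
    · cases bs with
      | nil => simp at h1 h2; omega
      | cons b bs =>
        simp only [merge]
        exact ((ih (by simpa using h1) (by simp at h2; omega)).cons b).trans List.perm_middle.symm
    · cases as with
      | nil => simp at h1
      | cons a as =>
        simp only [merge]
        exact (ih (by simpa using h1) (by simp at h2; omega)).cons a

variable {E : Type} [DecidableEq E]

theorem before_merge (cs : List Bool) (as b1 b2 : List E) (e : E) :
    before (merge cs as (b1 ++ [e])) e = before (merge cs as (b1 ++ e :: b2)) e := by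
  unfold before
  induction cs generalizing as b1 with
  | nil => simp [merge]
  | cons c cs ih =>
    cases c
    · cases b1 with
      | nil => simp [merge]
      | cons b b1 => simp only [List.cons_append, merge, List.takeWhile_cons, ih]
    · cases as with
      | nil => simp [merge]
      | cons a as => simp only [merge, List.takeWhile_cons, ih]

theorem before_split {l : List E} {e : E} (he : e ∈ l) : ∃ r, l = before l e ++ e :: r := by
  induction l with
  | nil => simp at he
  | cons a l ih =>
    by_cases h : a = e
    · exact ⟨l, by simp [before, h]⟩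
    · obtain ⟨r, hr⟩ := ih ((List.mem_cons.1 he).resolve_left (Ne.symm h))
      refine ⟨r, ?_⟩
      have : before (a :: l) e = a :: before l e := by simp [before, h]
      rw [this, List.cons_append, ← hr]

variable [Fintype E] {M : Matroid E}

theorem IsOrder.length {l : List E} (hl : IsOrder l) : l.length = Fintype.card E := by
  rw [← List.toFinset_card_of_nodup hl.1, eq_univ_of_forall fun e => List.mem_toFinset.2 (hl.2 e),
    card_univ]

/-- the acceptance predicate of the secretary rule -/
def SAcc (M : Matroid E) (cs : List Bool) (b : E → Bool) (h : List E) (e : E) (w : E → ℝ≥0) : Prop :=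
  cs.countP id ≤ h.length ∧ Acc M (fun x y => key w x < key w y) ((h.take (cs.countP id)).toFinset, b)
    (before (merge cs (h.take (cs.countP id)) (h.drop (cs.countP id) ++ [e])) e).reverse e

theorem sacc_iff {cs : List Bool} {b : E → Bool} {l : List E} {e : E} (he : e ∈ l) (w : E → ℝ≥0) :
    SAcc M cs b (before l e) e w ↔
      Acc M (fun x y => key w x < key w y) ((l.take (cs.countP id)).toFinset, b)
        (before (merge cs (l.take (cs.countP id)) (l.drop (cs.countP id))) e).reverse e := by
  obtain ⟨r, hr⟩ := before_split he
  unfold SAcc
  generalize before l e = h at *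
  subst hr
  by_cases hk : cs.countP id ≤ h.length
  · rw [List.take_append_of_le_length hk, List.drop_append_of_le_length hk,
      before_merge cs _ _ r e]
    simp [hk]
  · refine ⟨fun a => absurd a.1 hk, fun a => absurd ?_ a.notMem⟩
    rw [List.mem_toFinset, List.take_append]
    obtain ⟨k, hk'⟩ : ∃ k, cs.countP id - h.length = k + 1 := ⟨cs.countP id - h.length - 1, by omega⟩
    simp [hk']

theorem isOrder_merge {cs : List Bool} {l : List E} (hl : IsOrder l)
    (hc : cs.length = Fintype.card E) :
    IsOrder (merge cs (l.take (cs.countP id)) (l.drop (cs.countP id))) := by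
  have h0 := List.countP_le_length (p := id) (l := cs)
  have h1 := hl.length
  have := merge_perm (cs := cs) (as := l.take (cs.countP id)) (bs := l.drop (cs.countP id))
    (by simp; omega) (by simp; omega)
  rw [List.take_append_drop] at this
  exact ⟨this.nodup_iff.2 hl.1, fun e => this.mem_iff.2 (hl.2 e)⟩

/-- the secretary rule -/
noncomputable def secRule (hM : M.E = Set.univ) : SecRule M where
  Seed := List.Vector Bool (Fintype.card E) × (E → Bool)
  accept r h e w := SAcc M r.1.1 r.2 h e w
  online r h e w w' hw := by
    unfold SAcc
    refine and_congr_right fun _ => ?_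
    generalize r.1.1.countP id = k
    have m : ∀ a, (a ∈ (h.take k).toFinset ∨
        a ∈ e :: (before (merge r.1.1 (h.take k) (h.drop k ++ [e])) e).reverse) →
        key w a = key w' a := by
      intro a ha
      unfold key
      rw [hw a]
      rcases ha with ha | ha
      · exact Or.inl (List.mem_of_mem_take (List.mem_toFinset.1 ha))
      · rcases List.mem_cons.1 ha with ha | ha
        · exact Or.inr ha
        · rcases mem_merge ((List.takeWhile_prefix _).subset (List.mem_reverse.1 ha)) with a1 | a1
          · exact Or.inl (List.mem_of_mem_take a1)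
          · exact (List.mem_append.1 a1).imp List.mem_of_mem_drop List.mem_singleton.1
    unfold Acc
    rw [run_congr _ (e :: _) fun a b ha hb => by rw [m a ha, m b hb],
      run_congr _ (List.reverse _) fun a b ha hb => by
        rw [m a (ha.imp_right (List.mem_cons_of_mem e)), m b (hb.imp_right (List.mem_cons_of_mem e))]]
  indep r w l hl := (Gr_isBasis hM (key_inj _) _).indep.subset fun x hx =>
    ((acc_iff hM (key_inj _) _ (isOrder_merge hl r.1.2) x).1 ((sacc_iff (hl.2 x) w).1 hx)).1

theorem finite_orders : Finite {l : List E // IsOrder l} :=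
  Finite.of_injective (fun l => (⟨l.1, l.2.1⟩ : {l : List E // l.Nodup}))
    fun _ _ h => Subtype.ext (congrArg (fun z : {l : List E // l.Nodup} => z.1) h)

theorem IsOrder.split {v : List E} (hv : IsOrder v) (p : E → Bool) :
    IsOrder (v.filter p ++ v.filter fun x => !p x) :=
  ⟨(List.filter_append_perm p v).nodup_iff.2 hv.1,
    fun e => (List.filter_append_perm p v).mem_iff.2 (hv.2 e)⟩

theorem sec_main (hM : M.E = Set.univ) (w : E → ℝ≥0) [Fintype {l : List E // IsOrder l}] :
    (Fintype.card {l : List E // IsOrder l} : ℝ≥0∞) * (Fintype.card (St E) * opt M w) ≤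
      4 * ∑ q : (List.Vector Bool (Fintype.card E) × (E → Bool)) × {l : List E // IsOrder l},
        (secRule hM).gain q.1 q.2.1 w := by
  classical
  let Ψ : {l : List E // IsOrder l} × St E →
      (List.Vector Bool (Fintype.card E) × (E → Bool)) × {l : List E // IsOrder l} := fun q =>
    ((⟨q.1.1.map fun x => decide (x ∈ q.2.1), by rw [List.length_map, q.1.2.length]⟩, q.2.2),
      ⟨_, q.1.2.split fun x => decide (x ∈ q.2.1)⟩)
  have k1 : ∀ q, (Ψ q).2.1.take ((Ψ q).1.1.1.countP id) = q.1.1.filter fun x => decide (x ∈ q.2.1) :=
    fun q => List.take_left' (by simp [Ψ, List.countP_eq_length_filter, List.filter_map,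
      Function.comp_def])
  have k2 : ∀ q, (Ψ q).2.1.drop ((Ψ q).1.1.1.countP id) =
      q.1.1.filter fun x => !decide (x ∈ q.2.1) :=
    fun q => List.drop_left' (by simp [Ψ, List.countP_eq_length_filter, List.filter_map,
      Function.comp_def])
  have k3 : ∀ q, merge (Ψ q).1.1.1 ((Ψ q).2.1.take ((Ψ q).1.1.1.countP id))
      ((Ψ q).2.1.drop ((Ψ q).1.1.1.countP id)) = q.1.1 := fun q => by
    rw [k1, k2]; exact merge_filter _ _
  have k4 : ∀ q, ((Ψ q).2.1.take ((Ψ q).1.1.1.countP id)).toFinset = q.2.1 := fun q => by
    rw [k1]; ext x; simp [q.1.2.2 x]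
  have inj : Injective Ψ := fun q q' h => by
    refine Prod.ext (Subtype.ext ?_) (Prod.ext ?_ (congrArg (fun z => z.1.2) h))
    · rw [← k3 q, h, k3]
    · rw [← k4 q, h, k4]
  have g : ∀ q, (secRule hM).gain (Ψ q).1 (Ψ q).2.1 w =
      ∑ x with Acc M (fun a b => key w a < key w b) q.2 (before q.1.1 x).reverse x,
        (w x : ℝ≥0∞) := by
    intro q
    unfold SecRule.gain
    refine sum_congr (Finset.ext fun x => ?_) fun _ _ => rfl
    simp only [mem_filter, mem_univ, true_and]
    refine (sacc_iff ((Ψ q).2.2.2 x) w).trans ?_
    rw [k3, k4]
  calc _ = ∑ _v : {l : List E // IsOrder l}, (Fintype.card (St E) : ℝ≥0∞) * opt M w := by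
        rw [sum_const, card_univ, nsmul_eq_mul]
    _ ≤ ∑ v : {l : List E // IsOrder l}, 4 * ∑ s : St E, (secRule hM).gain (Ψ (v, s)).1
        (Ψ (v, s)).2.1 w := by
        refine sum_le_sum fun v _ => ?_
        simp only [g]
        convert count_bound hM (key_inj w) w (key_le w) v.2
    _ = 4 * ∑ q ∈ univ.map ⟨Ψ, inj⟩, (secRule hM).gain q.1 q.2.1 w := by
        rw [← mul_sum, sum_map, Fintype.sum_prod_type]; rfl
    _ ≤ _ := mul_le_mul_right (sum_le_sum_of_subset (subset_univ _)) _

end Vale.Agent.P331
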